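import Vale.Agent.P063.Fourier

/-! Low-degree weight on symmetric blocks; the Margulis-Russo formula. -/

namespace Vale.Agent.P063

open Finset

variable {E : Type} [Fintype E] [DecidableEq E] {p : ℝ}

noncomputable def io (p : ℝ) (F : (E → Bool) → ℝ) (Z : Finset E) : ℝ :=
  ∑ T, (if Disjoint T Z then 0 else 1) * co p F T ^ 2

noncomputable def low (p : ℝ) (F : (E → Bool) → ℝ) (Z : Finset E) (j : ℕ) : ℝ :=
  ∑ T, (if T ⊆ Z ∧ T.Nonempty ∧ T.card ≤ j then 1 else 0) * co p F T ^ 2

noncomputable def tot (p : ℝ) (F : (E → Bool) → ℝ) : ℝ := ∑ T, (T.card : ℝ) * co p F T ^ 2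

lemma io_nonneg (F : (E → Bool) → ℝ) (Z : Finset E) : 0 ≤ io p F Z :=
  sum_nonneg (fun T _ => by split_ifs <;> positivity)

lemma low_nonneg (F : (E → Bool) → ℝ) (Z : Finset E) (j : ℕ) : 0 ≤ low p F Z j :=
  sum_nonneg (fun T _ => by split_ifs <;> positivity)

lemma tot_nonneg (F : (E → Bool) → ℝ) : 0 ≤ tot p F :=
  sum_nonneg (fun T _ => by positivity)

lemma io_eq (h0 : 0 < p) (h1 : p < 1) (F : (E → Bool) → ℝ) (Z : Finset E) :
    io p F Z = Ex p (fun x => F x * F x) - Ex p (fun x => F x * Av p Z F x) := by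
  rw [parseval h0 h1, parseval h0 h1, ← sum_sub_distrib]
  apply sum_congr rfl
  intro T _
  rw [co_Av h0 h1]
  split_ifs <;> ring

lemma level (h0 : 0 < p) (h1 : p < 1) {F : (E → Bool) → ℝ} (hF : ∀ x, F x = 0 ∨ F x = 1)
    (Z : Finset E) (j : ℕ) : low p F Z j ^ 2 ≤ 8 * (2 / sg p) ^ (2 * j) * io p F Z ^ 3 := by
  set R : ℝ := 2 / sg p with hR
  have hs0 := sg_pos h0 h1
  have hs1 := sg_le h0 h1
  have hR1 : 1 ≤ R := by rw [hR, le_div_iff₀ hs0]; linarith
  set c : Finset E → ℝ := fun T => if T ⊆ Z ∧ T.Nonempty ∧ T.card ≤ j then co p F T else 0 with hc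
  set h : (E → Bool) → ℝ := fun x => ∑ T, c T * chi p T x with hh
  set a := low p F Z j with ha
  have ha0 : 0 ≤ a := low_nonneg F Z j
  have hco : ∀ T, co p h T = c T := by
    intro T
    rw [hh, co_poly h0 h1 _ _ (fun S => S), sum_ite_eq']
    simp
  have h2 : Ex p (fun x => h x ^ 4) ≤ (R ^ j * a) ^ 2 := by
    have h3 := bonami h0 h1 (univ : Finset E) c
    rw [powerset_univ] at h3
    refine h3.trans (pow_le_pow_left₀ (sum_nonneg (fun _ _ => by positivity)) ?_ 2)
    rw [ha, low, mul_sum]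
    apply sum_le_sum
    intro T _
    simp only [hc]
    split_ifs with hT
    · rw [one_mul]
      exact mul_le_mul_of_nonneg_right (pow_le_pow_right₀ hR1 hT.2.2) (sq_nonneg _)
    · simp
  set D : (E → Bool) → ℝ := fun x => F x - Av p Z F x with hD
  have hA0 : ∀ x, 0 ≤ Av p Z F x := fun x =>
    Ex_nonneg h0 h1 (fun y => by rcases hF (mix Z y x) with h | h <;> rw [h] <;> norm_num)
  have hA1 : ∀ x, Av p Z F x ≤ 1 := fun x =>
    (Ex_mono h0 h1 (g := fun _ => 1)
      (fun y => by rcases hF (mix Z y x) with h | h <;> rw [h] <;> norm_num)).trans_eq (Ex_const 1)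
  have h3 : a = Ex p (fun x => h x * D x) := by
    simp only [hD, mul_sub]
    rw [Ex_sub, parseval h0 h1, parseval h0 h1, ← sum_sub_distrib, ha, low]
    apply sum_congr rfl
    intro T _
    rw [hco, co_Av h0 h1]
    simp only [hc]
    split_ifs with hT hT'
    · obtain ⟨x, hx⟩ := hT.2.1
      exact absurd (hT.1 hx) (disjoint_left.1 hT' hx)
    all_goals ring
  have h4 : Ex p (fun x => |D x|) = 2 * io p F Z := by
    have h5 : ∀ x, |D x| = F x * F x + Av p Z F x - 2 * (F x * Av p Z F x) := by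
      intro x
      have := hA0 x
      have := hA1 x
      simp only [hD]
      rcases hF x with h | h <;> rw [h]
      · rw [abs_of_nonpos (by linarith)]; ring
      · rw [abs_of_nonneg (by linarith)]; ring
    have h6 : Ex p F = Ex p (fun x => F x * F x) := by
      congr; ext x; rcases hF x with h | h <;> rw [h] <;> norm_num
    simp only [h5]
    rw [Ex_sub, Ex_add, Ex_mul, Ex_Av h0 h1, h6, io_eq h0 h1]; ring
  have hD1 : ∀ x, |D x| ≤ 1 := fun x => by
    have := hA0 x
    have := hA1 x
    simp only [hD]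
    rcases hF x with h | h <;> rw [h, abs_le] <;> constructor <;> linarith
  have h5 : a ≤ Ex p (fun x => |D x| * (|h x| * 1)) := by
    rw [h3]
    apply Ex_mono h0 h1
    intro x
    rw [mul_one, ← abs_mul, mul_comm]
    exact le_abs_self _
  have h6 := Ex_cs h0 h1 (u := fun x => |D x|) (fun x => abs_nonneg _) (fun x => |h x|) (fun _ => 1)
  simp only [one_pow, mul_one, sq_abs] at h5 h6
  have h7 := Ex_cs h0 h1 (u := fun _ => 1) (fun x => zero_le_one) (fun x => |D x|)
    (fun x => h x ^ 2)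
  simp only [one_mul, ← pow_mul] at h7
  have h8 : Ex p (fun x => |D x| ^ 2) ≤ Ex p (fun x => |D x|) :=
    Ex_mono h0 h1 (fun x => by nlinarith [hD1 x, abs_nonneg (D x)])
  rw [h4] at h6 h8
  set δ := io p F Z
  have hδ : 0 ≤ δ := io_nonneg F Z
  set u := Ex p (fun x => |D x| * h x ^ 2)
  have hu0 : 0 ≤ u := Ex_nonneg h0 h1 (fun x => by positivity)
  have h9 : a ^ 2 ≤ u * (2 * δ) := (pow_le_pow_left₀ ha0 h5 2).trans h6
  have h10 : u ^ 2 ≤ (2 * δ) * (R ^ j * a) ^ 2 :=
    h7.trans (mul_le_mul h8 h2 (Ex_nonneg h0 h1 (fun x => Even.pow_nonneg (by decide) _))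
      (by positivity))
  rcases ha0.eq_or_lt with h11 | h11
  · rw [← h11]; simp only [ne_eq, OfNat.ofNat_ne_zero, not_false_eq_true, zero_pow]; positivity
  have h12 : a ^ 2 * a ^ 2 ≤ a ^ 2 * (8 * R ^ (2 * j) * δ ^ 3) := by
    calc a ^ 2 * a ^ 2 = (a ^ 2) ^ 2 := by ring
      _ ≤ (u * (2 * δ)) ^ 2 := pow_le_pow_left₀ (sq_nonneg _) h9 2
      _ = u ^ 2 * (2 * δ) ^ 2 := by ring
      _ ≤ (2 * δ) * (R ^ j * a) ^ 2 * (2 * δ) ^ 2 := by gcongr
      _ = _ := by ring
  exact le_of_mul_le_mul_left h12 (by positivity)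

lemma symm_bound (h0 : 0 < p) (h1 : p < 1) {F : (E → Bool) → ℝ} (hF : ∀ x, F x = 0 ∨ F x = 1)
    {ι : Type} (W : Finset ι) (Z : ι → Finset E)
    (hZ : ∀ w ∈ W, ∀ w' ∈ W, w ≠ w' → Disjoint (Z w) (Z w'))
    (hs : ∀ w ∈ W, ∀ w' ∈ W, io p F (Z w) = io p F (Z w')) (j : ℕ) {θ : ℝ} (hθ : 0 ≤ θ)
    (hj : (2 / sg p) ^ (2 * j) ≤ θ ^ 3 * W.card) :
    ∑ w ∈ W, low p F (Z w) j ≤ 2 * θ * tot p F := by
  classical
  have ht := tot_nonneg (p := p) F
  rcases W.eq_empty_or_nonempty with rfl | hW
  · rw [sum_empty]; positivity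
  have hW0 : (0 : ℝ) < W.card := by exact_mod_cast hW.card_pos
  set A := ∑ w ∈ W, low p F (Z w) j with hA
  have hA0 : 0 ≤ A := sum_nonneg (fun w _ => low_nonneg _ _ _)
  have hA1 : A ≤ 1 := by
    calc A ≤ ∑ T, co p F T * co p F T := by
          simp only [hA, low]
          rw [sum_comm]
          apply sum_le_sum
          intro T _
          rw [← sum_mul, ← sq]
          apply mul_le_of_le_one_left (sq_nonneg _)
          rw [sum_boole]
          norm_cast
          rw [card_le_one]
          intro w hw w' hw'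
          by_contra hne
          obtain ⟨hw1, hw2, ⟨x, hx⟩, -⟩ := mem_filter.1 hw
          obtain ⟨hw3, hw4, -⟩ := mem_filter.1 hw'
          exact disjoint_left.1 (hZ w hw1 w' hw3 hne) (hw2 hx) (hw4 hx)
      _ = Ex p (fun x => F x * F x) := (parseval h0 h1 F F).symm
      _ ≤ Ex p (fun _ => 1) :=
          Ex_mono h0 h1 (fun x => by rcases hF x with h | h <;> rw [h] <;> norm_num)
      _ = 1 := Ex_const 1
  have h2 : ∑ w ∈ W, io p F (Z w) ≤ tot p F := by
    simp only [io, tot]
    rw [sum_comm]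
    apply sum_le_sum
    intro T _
    rw [← sum_mul]
    apply mul_le_mul_of_nonneg_right _ (sq_nonneg _)
    calc _ ≤ ∑ w ∈ W, ((T ∩ Z w).card : ℝ) := by
          apply sum_le_sum
          intro w _
          split_ifs with h
          · positivity
          · exact_mod_cast (not_disjoint_iff_nonempty_inter.1 h).card_pos
      _ ≤ _ := by
          norm_cast
          rw [← card_biUnion (fun w hw w' hw' hne => disjoint_of_subset_left inter_subset_right
            (disjoint_of_subset_right inter_subset_right (hZ w hw w' hw' hne)))]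
          exact card_le_card (biUnion_subset.2 (fun w _ => inter_subset_left))
  have h3 : ∀ w ∈ W, io p F (Z w) ≤ tot p F / W.card := by
    intro w hw
    rw [sum_congr rfl (fun w' hw' => hs w' hw' w hw), sum_const, nsmul_eq_mul] at h2
    rw [le_div_iff₀ hW0]; linarith
  have h4 : A ^ 2 ≤ (2 * θ * tot p F) ^ 3 := by
    calc A ^ 2 ≤ W.card * ∑ w ∈ W, low p F (Z w) j ^ 2 := sq_sum_le_card_mul_sum_sq
      _ ≤ W.card * ∑ w ∈ W, 8 * (θ ^ 3 * W.card) * (tot p F / W.card) ^ 3 := by
          apply mul_le_mul_of_nonneg_left _ hW0.le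
          apply sum_le_sum
          intro w hw
          refine (level h0 h1 hF (Z w) j).trans ?_
          have := io_nonneg (p := p) F (Z w)
          have := h3 w hw
          gcongr
      _ = _ := by rw [sum_const, nsmul_eq_mul]; field_simp; ring
  apply le_of_pow_le_pow_left₀ (n := 3) (by norm_num) (by positivity)
  nlinarith [sq_nonneg A]

lemma Ex_perm (τ : E ≃ E) (g : (E → Bool) → ℝ) : Ex p (fun x => g (x ∘ τ)) = Ex p g := by
  unfold Ex
  apply Fintype.sum_equiv (Equiv.arrowCongr τ.symm (Equiv.refl Bool))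
  intro x
  have : (Equiv.arrowCongr τ.symm (Equiv.refl Bool)) x = x ∘ τ := by ext e; simp
  rw [this]
  congr 1
  exact (Equiv.prod_comp τ (fun e => bw p (x e))).symm

lemma io_perm {F : (E → Bool) → ℝ} (τ : E ≃ E) (hτ : ∀ x, F (x ∘ τ) = F x) (Z : Finset E) :
    io p F (Z.map τ.toEmbedding) = io p F Z := by
  symm
  unfold io
  apply Fintype.sum_equiv τ.finsetCongr
  intro T
  have h1 : co p F (T.map τ.toEmbedding) = co p F T := by
    unfold co
    rw [← Ex_perm τ (fun x => F x * chi p T x)]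
    congr
    ext x
    rw [hτ, chi, chi, prod_map]; rfl
  simp only [Equiv.finsetCongr_apply, h1, disjoint_map]

lemma var_eq (h0 : 0 < p) (h1 : p < 1) {F : (E → Bool) → ℝ} (hF : ∀ x, F x = 0 ∨ F x = 1) :
    Ex p F * (1 - Ex p F) = ∑ S, (if S = ∅ then 0 else 1) * co p F S ^ 2 := by
  have h6 : Ex p F = Ex p (fun x => F x * F x) := by
    congr; ext x; rcases hF x with h | h <;> rw [h] <;> norm_num
  have h2 := parseval h0 h1 F F
  rw [← h6] at h2
  have h3 : ∀ S : Finset E, (if S = ∅ then 0 else 1) * co p F S ^ 2 =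
      co p F S * co p F S - if S = ∅ then co p F S ^ 2 else 0 := by
    intro S; split_ifs <;> ring
  simp only [h3]
  rw [sum_sub_distrib, ← h2, sum_ite_eq']
  simp only [mem_univ, if_true, co_empty]; ring

lemma russo (h0 : 0 < p) (h1 : p < 1) {F : (E → Bool) → ℝ} (hF : ∀ x, F x = 0 ∨ F x = 1)
    (hm : ∀ x e, F (Function.update x e false) ≤ F (Function.update x e true)) :
    HasDerivAt (fun q => Ex q F) (tot p F / sg p ^ 2) p := by
  have hs := sg_sq h0 h1
  have hs0 := (sg_pos h0 h1).ne'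
  have h2 : ∀ b, HasDerivAt (fun q => bw q b) (bw p b * phi p b / sg p) p := by
    intro b
    cases b
    · have : bw p false * phi p false / sg p = -1 := by
        simp only [bw, phi, Bool.false_eq_true, if_false]; field_simp; rw [hs]; ring
      rw [this]
      simpa [bw] using (hasDerivAt_id p).const_sub 1
    · have : bw p true * phi p true / sg p = 1 := by
        simp only [bw, phi, if_true]; field_simp; rw [hs]
      rw [this]
      simpa [bw] using hasDerivAt_id' p
  have h3 : HasDerivAt (fun q => Ex q F) (∑ x : E → Bool, (∑ e, (∏ e' ∈ univ.erase e, bw p (x e')) •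
      (bw p (x e) * phi p (x e) / sg p)) * F x) p := by
    unfold Ex wt
    exact HasDerivAt.fun_sum (fun x _ =>
      (HasDerivAt.fun_finsetProd (fun e _ => h2 (x e))).mul_const (F x))
  have h4 : tot p F = ∑ e, io p F {e} := by
    simp only [io, tot]
    rw [sum_comm]
    apply sum_congr rfl
    intro T _
    rw [← sum_mul]
    congr 1
    simp only [disjoint_singleton_right, ite_not, sum_boole]
    simp
  have h5 : ∀ e, io p F {e} = sg p * co p F {e} := by
    intro e
    rw [io_eq h0 h1, ← Ex_sub, co, ← Ex_mul]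
    refine (Ex_Av h0 h1 _ {e}).symm.trans (Eq.trans ?_ (Ex_Av h0 h1 _ {e}))
    congr 1
    ext x
    simp only [Av_single, Function.update_idem, chi, prod_singleton, Function.update_self, phi,
      if_true, Bool.false_eq_true, if_false]
    have := hm x e
    rcases hF (Function.update x e true) with h | h <;>
      rcases hF (Function.update x e false) with h' | h' <;> rw [h, h'] at this ⊢
    · ring
    · norm_num at this
    · field_simp; ring
    · field_simp; ring
  have h6 : tot p F / sg p ^ 2 = ∑ x : E → Bool, (∑ e, (∏ e' ∈ univ.erase e, bw p (x e')) •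
      (bw p (x e) * phi p (x e) / sg p)) * F x := by
    simp only [h4, h5, sum_mul, sum_div, smul_eq_mul, co, Ex, mul_sum]
    rw [sum_comm]
    apply sum_congr rfl; intro x _
    apply sum_congr rfl; intro e _
    rw [wt, ← mul_prod_erase univ _ (mem_univ e), chi, prod_singleton]
    field_simp
  rw [h6]
  exact h3

end Vale.Agent.P063
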