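import Mathlib

namespace Vale.Agent.P063

/-- `E_{n,r}`: the `r`-element subsets of `[n]`. -/
abbrev Edge (n r : ℕ) : Type := {e : Finset (Fin n) // e.card = r}

/-- A point of `{0,1}^{E_{n,r}}`, i.e. an `r`-uniform hypergraph on `[n]`. -/
abbrev Hyp (n r : ℕ) : Type := Edge n r → Bool

variable {n r : ℕ}

/-- The image of an edge under a permutation of the vertices. -/
def relabel (σ : Equiv.Perm (Fin n)) (e : Edge n r) : Edge n r :=
  ⟨e.1.map σ.toEmbedding, (Finset.card_map _).trans e.2⟩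

/-- Invariance under all permutations of the vertices. -/
def IsProperty (P : Finset (Hyp n r)) : Prop :=
  ∀ σ : Equiv.Perm (Fin n), ∀ x ∈ P, (fun e => x (relabel σ e)) ∈ P

/-- Adding edges preserves membership. -/
def IsIncreasing (P : Finset (Hyp n r)) : Prop :=
  ∀ x ∈ P, ∀ y : Hyp n r, (∀ e, x e = true → y e = true) → y ∈ P

/-- `μ_p(P)`. -/
def mu (p : ℝ) (P : Finset (Hyp n r)) : ℝ :=
  ∑ x ∈ P, ∏ e, if x e = true then p else 1 - p

/-- `p_a(P) = inf {p ∈ [0,1] : μ_p(P) ≥ a}`. -/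
noncomputable def pa (a : ℝ) (P : Finset (Hyp n r)) : ℝ :=
  sInf {p : ℝ | 0 ≤ p ∧ p ≤ 1 ∧ a ≤ mu p P}

/-- The threshold width `w_ε(P) = p_{1-ε}(P) - p_ε(P)`. -/
noncomputable def width (ε : ℝ) (P : Finset (Hyp n r)) : ℝ := pa (1 - ε) P - pa ε P

end Vale.Agent.P063
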