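import Mathlib

/-! Biased Fourier analysis on the discrete cube and the Bonami lemma. -/

namespace Vale.Agent.P063

open Finset

variable {E : Type} [Fintype E] [DecidableEq E]

def bw (p : ℝ) (b : Bool) : ℝ := if b then p else 1 - p

def wt (p : ℝ) (x : E → Bool) : ℝ := ∏ e, bw p (x e)

def Ex (p : ℝ) (f : (E → Bool) → ℝ) : ℝ := ∑ x, wt p x * f x

noncomputable def sg (p : ℝ) : ℝ := √(p * (1 - p))

noncomputable def phi (p : ℝ) (b : Bool) : ℝ := ((if b then 1 else 0) - p) / sg p

noncomputable def chi (p : ℝ) (S : Finset E) (x : E → Bool) : ℝ := ∏ e ∈ S, phi p (x e)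

noncomputable def co (p : ℝ) (f : (E → Bool) → ℝ) (S : Finset E) : ℝ :=
  Ex p (fun x => f x * chi p S x)

variable {p : ℝ}

lemma sg_pos (h0 : 0 < p) (h1 : p < 1) : 0 < sg p :=
  Real.sqrt_pos.2 (mul_pos h0 (by linarith))

lemma sg_sq (h0 : 0 < p) (h1 : p < 1) : sg p ^ 2 = p * (1 - p) :=
  Real.sq_sqrt (mul_pos h0 (by linarith)).le

lemma sg_le (h0 : 0 < p) (h1 : p < 1) : sg p ≤ 1 / 2 := by
  have := sg_sq h0 h1
  have := sg_pos h0 h1
  nlinarith [sq_nonneg (p - 1 / 2)]

omit [DecidableEq E] in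
lemma wt_nonneg (h0 : 0 < p) (h1 : p < 1) (x : E → Bool) : 0 ≤ wt p x :=
  prod_nonneg (fun e _ => by unfold bw; split_ifs <;> linarith)

lemma Ex_prod (g : E → Bool → ℝ) :
    Ex p (fun x => ∏ e, g e (x e)) = ∏ e, (p * g e true + (1 - p) * g e false) := by
  have := prod_univ_sum (fun _ : E => (univ : Finset Bool)) (fun e b => bw p b * g e b)
  rw [Fintype.piFinset_univ] at this
  unfold Ex wt
  simp only [← prod_mul_distrib]
  rw [← this]
  simp [bw]

lemma Ex_const (c : ℝ) : Ex p (fun _ : E → Bool => c) = c := by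
  have := Ex_prod (p := p) (E := E) (fun _ _ => 1)
  simp only [prod_const_one, mul_one, add_sub_cancel] at this
  unfold Ex at this ⊢
  simp only [mul_one] at this
  rw [← sum_mul, this, one_mul]

lemma Ex_add (f g : (E → Bool) → ℝ) : Ex p (fun x => f x + g x) = Ex p f + Ex p g := by
  simp only [Ex, mul_add, sum_add_distrib]

lemma Ex_sub (f g : (E → Bool) → ℝ) : Ex p (fun x => f x - g x) = Ex p f - Ex p g := by
  simp only [Ex, mul_sub, sum_sub_distrib]

lemma Ex_mul (c : ℝ) (f : (E → Bool) → ℝ) : Ex p (fun x => c * f x) = c * Ex p f := by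
  simp only [Ex, mul_sum]; apply sum_congr rfl; intros; ring

lemma Ex_sum {ι : Type} (s : Finset ι) (f : ι → (E → Bool) → ℝ) :
    Ex p (fun x => ∑ i ∈ s, f i x) = ∑ i ∈ s, Ex p (f i) := by
  simp only [Ex, mul_sum]; rw [sum_comm]

lemma Ex_mono (h0 : 0 < p) (h1 : p < 1) {f g : (E → Bool) → ℝ} (h : ∀ x, f x ≤ g x) :
    Ex p f ≤ Ex p g :=
  sum_le_sum (fun x _ => mul_le_mul_of_nonneg_left (h x) (wt_nonneg h0 h1 x))

lemma Ex_nonneg (h0 : 0 < p) (h1 : p < 1) {f : (E → Bool) → ℝ} (h : ∀ x, 0 ≤ f x) :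
    0 ≤ Ex p f :=
  sum_nonneg (fun x _ => mul_nonneg (wt_nonneg h0 h1 x) (h x))

lemma Ex_cs (h0 : 0 < p) (h1 : p < 1) {u : (E → Bool) → ℝ} (hu : ∀ x, 0 ≤ u x)
    (f g : (E → Bool) → ℝ) :
    Ex p (fun x => u x * (f x * g x)) ^ 2 ≤
      Ex p (fun x => u x * f x ^ 2) * Ex p (fun x => u x * g x ^ 2) := by
  unfold Ex
  apply sum_sq_le_sum_mul_sum_of_sq_le_mul
  · intro x _; exact mul_nonneg (wt_nonneg h0 h1 x) (mul_nonneg (hu x) (sq_nonneg _))
  · intro x _; exact mul_nonneg (wt_nonneg h0 h1 x) (mul_nonneg (hu x) (sq_nonneg _))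
  · intro x _; apply le_of_eq; ring

lemma Ex_coord (e : E) (ψ : Bool → ℝ) :
    Ex p (fun x : E → Bool => ψ (x e)) = p * ψ true + (1 - p) * ψ false := by
  have := Ex_prod (p := p) (fun e' b => if e' = e then ψ b else 1)
  simp only [prod_ite_eq', mem_univ, if_true] at this
  rw [this, prod_eq_single e]
  · simp
  · intro e' _ h; simp [h]
  · simp

lemma orth (h0 : 0 < p) (h1 : p < 1) (S T : Finset E) :
    Ex p (fun x => chi p S x * chi p T x) = if S = T then 1 else 0 := by
  have hs := sg_sq h0 h1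
  have hs0 := (sg_pos h0 h1).ne'
  have h2 : ∀ x : E → Bool, chi p S x * chi p T x =
      ∏ e, ((if e ∈ S then phi p (x e) else 1) * (if e ∈ T then phi p (x e) else 1)) := by
    intro x
    rw [prod_mul_distrib, prod_ite_mem, prod_ite_mem, univ_inter, univ_inter]; rfl
  simp only [h2]
  rw [Ex_prod (fun e b => (if e ∈ S then phi p b else 1) * (if e ∈ T then phi p b else 1))]
  split_ifs with h
  · subst h
    apply prod_eq_one
    intro e _
    split_ifs
    · simp only [phi, if_true, Bool.false_eq_true, if_false]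
      field_simp
      rw [hs]; ring
    · ring
  · obtain ⟨e, he⟩ : ∃ e, ¬ (e ∈ S ↔ e ∈ T) := by
      by_contra hc
      push Not at hc
      exact h (Finset.ext hc)
    apply prod_eq_zero (mem_univ e)
    by_cases h3 : e ∈ S <;> by_cases h4 : e ∈ T
    · exact absurd (iff_of_true h3 h4) he
    · simp only [h3, h4, phi, if_true, if_false, Bool.false_eq_true]; ring
    · simp only [h3, h4, phi, if_true, if_false, Bool.false_eq_true]; ring
    · exact absurd (iff_of_false h3 h4) he

omit [Fintype E] [DecidableEq E] in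
lemma chi_empty (x : E → Bool) : chi p ∅ x = 1 := prod_empty

lemma Ex_chi (h0 : 0 < p) (h1 : p < 1) (S : Finset E) :
    Ex p (chi p S) = if S = ∅ then 1 else 0 := by
  rw [← orth h0 h1 S ∅]
  simp only [chi_empty, mul_one]

lemma co_empty (f : (E → Bool) → ℝ) : co p f ∅ = Ex p f := by
  simp only [co, chi_empty, mul_one]

lemma expand (h0 : 0 < p) (h1 : p < 1) (f : (E → Bool) → ℝ) (x : E → Bool) :
    f x = ∑ S, co p f S * chi p S x := by
  have hs := sg_sq h0 h1
  have hs0 := (sg_pos h0 h1).ne'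
  have key : ∀ y : E → Bool, wt p y * ∑ S, chi p S y * chi p S x = if y = x then 1 else 0 := by
    intro y
    have h2 := prod_one_add (f := fun e => phi p (y e) * phi p (x e)) univ
    rw [powerset_univ] at h2
    simp only [prod_mul_distrib] at h2
    unfold chi wt
    rw [← h2, ← prod_mul_distrib]
    have h3 : ∀ a b : Bool, bw p a * (1 + phi p a * phi p b) = if a = b then 1 else 0 := by
      intro a b
      cases a <;> cases b <;> simp only [bw, phi, if_true, if_false, Bool.false_eq_true,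
        Bool.true_eq_false] <;> field_simp <;> rw [hs] <;> ring
    simp only [h3]
    rw [prod_ite_zero]
    simp [funext_iff]
  calc f x = ∑ y, f y * if y = x then 1 else 0 := by simp
    _ = _ := by
        simp only [← key, co, Ex, sum_mul, mul_sum]
        rw [sum_comm]
        apply sum_congr rfl; intro S _
        apply sum_congr rfl; intro y _
        ring

lemma parseval (h0 : 0 < p) (h1 : p < 1) (f g : (E → Bool) → ℝ) :
    Ex p (fun x => f x * g x) = ∑ S, co p f S * co p g S := by
  have : ∀ x, f x * g x = ∑ S, co p g S * (f x * chi p S x) := by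
    intro x
    conv_lhs => rw [expand h0 h1 g x, mul_sum]
    apply sum_congr rfl; intros; ring
  simp only [this]
  rw [Ex_sum]
  apply sum_congr rfl
  intro S _
  rw [Ex_mul, mul_comm]; rfl

lemma co_poly (h0 : 0 < p) (h1 : p < 1) {ι : Type} (s : Finset ι) (c : ι → ℝ) (κ : ι → Finset E)
    (T : Finset E) :
    co p (fun x => ∑ i ∈ s, c i * chi p (κ i) x) T = ∑ i ∈ s, if κ i = T then c i else 0 := by
  unfold co
  simp only [sum_mul, mul_assoc]
  rw [Ex_sum]
  apply sum_congr rfl
  intro i _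
  rw [Ex_mul, orth h0 h1]
  simp

/-- use `x'` on `U` and `x` elsewhere -/
def mix (U : Finset E) (x' x : E → Bool) : E → Bool := fun e => if e ∈ U then x' e else x e

omit [Fintype E] in
lemma chi_mix (U S : Finset E) (x' x : E → Bool) :
    chi p S (mix U x' x) = chi p (S \ U) x * chi p (S ∩ U) x' := by
  unfold chi
  rw [← prod_inter_mul_prod_sdiff S U, mul_comm]
  congr 1
  · exact prod_congr rfl (fun e he => by rw [mix, if_neg (mem_sdiff.1 he).2])
  · exact prod_congr rfl (fun e he => by rw [mix, if_pos (mem_inter.1 he).2])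

lemma co_mix (h0 : 0 < p) (h1 : p < 1) (f : (E → Bool) → ℝ) (U T : Finset E) (x : E → Bool) :
    co p (fun x' => f (mix U x' x)) T =
      ∑ S ∈ univ.filter (fun S => S ∩ U = T), co p f S * chi p (S \ U) x := by
  have : (fun x' => f (mix U x' x)) =
      fun x' => ∑ S, (co p f S * chi p (S \ U) x) * chi p (S ∩ U) x' := by
    ext x'
    rw [expand h0 h1 f (mix U x' x)]
    simp only [chi_mix, mul_assoc]
  rw [this, co_poly h0 h1, sum_filter]

lemma Ex_co_mix (h0 : 0 < p) (h1 : p < 1) (f : (E → Bool) → ℝ) (U : Finset E)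
    (ω : Finset E → ℝ) :
    Ex p (fun x => ∑ T, ω T * co p (fun x' => f (mix U x' x)) T ^ 2) =
      ∑ S, ω (S ∩ U) * co p f S ^ 2 := by
  rw [Ex_sum, ← sum_fiberwise (s := univ) (g := fun S : Finset E => S ∩ U)
    (f := fun S => ω (S ∩ U) * co p f S ^ 2)]
  apply sum_congr rfl
  intro T _
  rw [Ex_mul, sum_congr rfl (g := fun S => ω T * co p f S ^ 2)
    (fun S hS => by rw [(mem_filter.1 hS).2]), ← mul_sum]
  congr 1
  have hm : ∀ (S S' : Finset E) (x : E → Bool),
      co p f S * chi p (S \ U) x * (co p f S' * chi p (S' \ U) x) =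
      co p f S * co p f S' * (chi p (S \ U) x * chi p (S' \ U) x) := fun _ _ _ => by ring
  simp only [co_mix h0 h1, sq, sum_mul_sum, hm]
  rw [Ex_sum]
  apply sum_congr rfl
  intro S hS
  rw [Ex_sum, sum_eq_single S]
  · have := orth h0 h1 (S \ U) (S \ U)
    rw [if_pos rfl] at this
    rw [Ex_mul, this, mul_one]
  · intro S' hS' hne
    rw [Ex_mul, orth h0 h1, if_neg, mul_zero]
    intro h
    apply hne
    rw [← sdiff_union_inter S U, ← sdiff_union_inter S' U, h, (mem_filter.1 hS).2,
      (mem_filter.1 hS').2]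
  · intro h; exact absurd hS h

/-- average over the coordinates in `Z` -/
def Av (p : ℝ) (Z : Finset E) (f : (E → Bool) → ℝ) (x : E → Bool) : ℝ :=
  Ex p (fun x' => f (mix Z x' x))

lemma co_Av (h0 : 0 < p) (h1 : p < 1) (f : (E → Bool) → ℝ) (Z T : Finset E) :
    co p (Av p Z f) T = if Disjoint T Z then co p f T else 0 := by
  have : Av p Z f = fun x => ∑ S ∈ univ.filter (fun S => S ∩ Z = ∅), co p f S * chi p S x := by
    ext x
    rw [Av, ← co_empty, co_mix h0 h1]
    apply sum_congr rfl
    intro S hS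
    rw [Finset.sdiff_eq_self_iff_disjoint.2 (disjoint_iff_inter_eq_empty.2 (mem_filter.1 hS).2)]
  rw [this, co_poly h0 h1 _ _ (fun S => S), sum_ite_eq']
  simp [disjoint_iff_inter_eq_empty]

lemma Ex_Av (h0 : 0 < p) (h1 : p < 1) (f : (E → Bool) → ℝ) (Z : Finset E) :
    Ex p (Av p Z f) = Ex p f := by
  rw [← co_empty, co_Av h0 h1, if_pos (disjoint_empty_left _), co_empty]

lemma Av_single (f : (E → Bool) → ℝ) (e : E) (x : E → Bool) :
    Av p {e} f x = p * f (Function.update x e true) + (1 - p) * f (Function.update x e false) := by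
  rw [← Ex_coord e (fun b => f (Function.update x e b)), Av]
  congr
  ext x'
  congr
  ext e'
  by_cases h : e' = e
  · subst h; simp [mix]
  · simp [mix, h]

lemma indep (h0 : 0 < p) (h1 : p < 1) (e : E) (ψ : Bool → ℝ) {g : (E → Bool) → ℝ}
    (hg : ∀ x b, g (Function.update x e b) = g x) :
    Ex p (fun x => ψ (x e) * g x) = (p * ψ true + (1 - p) * ψ false) * Ex p g := by
  rw [← Ex_Av h0 h1 _ {e}, ← Ex_mul]
  congr
  ext x
  rw [Av_single]
  simp only [hg, Function.update_self]
  ring

theorem bonami (h0 : 0 < p) (h1 : p < 1) (Z : Finset E) : ∀ c : Finset E → ℝ,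
    Ex p (fun x => (∑ T ∈ Z.powerset, c T * chi p T x) ^ 4) ≤
      (∑ T ∈ Z.powerset, (2 / sg p) ^ T.card * c T ^ 2) ^ 2 := by
  induction Z using Finset.induction_on with
  | empty =>
    intro c
    simp only [powerset_empty, sum_singleton, chi_empty, Ex_const, card_empty]
    apply le_of_eq; ring
  | insert e Z he ih =>
    intro c
    have hs := sg_sq h0 h1
    have hs0 := sg_pos h0 h1
    have hs1 := sg_le h0 h1
    set a : (E → Bool) → ℝ := fun x => ∑ T ∈ Z.powerset, c T * chi p T x with ha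
    set b : (E → Bool) → ℝ := fun x => ∑ T ∈ Z.powerset, c (insert e T) * chi p T x with hb
    set R : ℝ := 2 / sg p with hR
    set α : ℝ := ∑ T ∈ Z.powerset, R ^ T.card * c T ^ 2 with hα
    set β : ℝ := ∑ T ∈ Z.powerset, R ^ T.card * c (insert e T) ^ 2 with hβ
    have hR4 : 4 ≤ R := by rw [hR, le_div_iff₀ hs0]; linarith
    have hα0 : 0 ≤ α := sum_nonneg (fun _ _ => by positivity)
    have hβ0 : 0 ≤ β := sum_nonneg (fun _ _ => by positivity)
    have e1 : ∀ x, ∑ T ∈ (insert e Z).powerset, c T * chi p T x = a x + phi p (x e) * b x := by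
      intro x
      rw [sum_powerset_insert he, hb, mul_sum]
      congr 1
      apply sum_congr rfl
      intro T hT
      unfold chi
      rw [prod_insert (fun h => he (mem_powerset.1 hT h))]; ring
    have e2 : ∑ T ∈ (insert e Z).powerset, R ^ T.card * c T ^ 2 = α + R * β := by
      rw [sum_powerset_insert he, hβ, mul_sum]
      congr 1
      apply sum_congr rfl
      intro T hT
      rw [card_insert_of_notMem (fun h => he (mem_powerset.1 hT h))]; ring
    have hu : ∀ (d : Finset E → ℝ) (x : E → Bool) (v : Bool),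
        ∑ T ∈ Z.powerset, d T * chi p T (Function.update x e v) =
          ∑ T ∈ Z.powerset, d T * chi p T x := by
      intro d x v
      apply sum_congr rfl
      intro T hT
      congr 1
      exact prod_congr rfl (fun e' he' => by
        rw [Function.update_of_ne (ne_of_mem_of_not_mem (mem_powerset.1 hT he') he)])
    have ha' : ∀ x v, a (Function.update x e v) = a x := hu _
    have hb' : ∀ x v, b (Function.update x e v) = b x := hu _
    have ia : Ex p (fun x => a x ^ 4) ≤ α ^ 2 := ih c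
    have ib : Ex p (fun x => b x ^ 4) ≤ β ^ 2 := ih (fun T => c (insert e T))
    have iab : Ex p (fun x => a x ^ 2 * b x ^ 2) ≤ α * β := by
      have h2 := Ex_cs h0 h1 (u := fun _ => 1) (fun _ => zero_le_one)
        (fun x => a x ^ 2) (fun x => b x ^ 2)
      simp only [one_mul, ← pow_mul] at h2
      have h3 : 0 ≤ Ex p (fun x => b x ^ 4) := Ex_nonneg h0 h1 (fun x => by positivity)
      apply le_of_sq_le_sq _ (mul_nonneg hα0 hβ0)
      calc _ ≤ _ := h2
        _ ≤ α ^ 2 * β ^ 2 := mul_le_mul ia ib h3 (sq_nonneg _)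
        _ = _ := by ring
    simp only [e1]
    rw [e2, ← Ex_Av h0 h1 _ {e}]
    calc _ ≤ Ex p (fun x => a x ^ 4 + 8 * (a x ^ 2 * b x ^ 2) + R ^ 2 * b x ^ 4) := by
          apply Ex_mono h0 h1
          intro x
          rw [Av_single]
          simp only [ha', hb', Function.update_self, phi, if_true, if_false, Bool.false_eq_true]
          set A := a x
          set B := b x / sg p with hB
          have h2 : b x = sg p * B := by rw [hB]; field_simp
          have h3 : R ^ 2 * b x ^ 4 = 4 * sg p ^ 2 * B ^ 4 := by rw [h2, hR]; field_simp; ring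
          have h4 : (1 - p) / sg p * b x = (1 - p) * B := by rw [hB]; ring
          have h5 : (0 - p) / sg p * b x = -p * B := by rw [hB]; ring
          rw [h3, h4, h5, h2, mul_pow, hs]
          have h6 : 0 ≤ p * (1 - p) := by nlinarith
          have h7 : 0 ≤ 2 * (A * B) ^ 2 - 4 * (1 - 2 * p) * (A * B) * B ^ 2 +
              (3 + 3 * (p * (1 - p))) * (B ^ 2) ^ 2 := by
            have : 0 ≤ (1 - (1 - 2 * p) ^ 2) * (B ^ 2) ^ 2 := by
              apply mul_nonneg _ (sq_nonneg _); nlinarith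
            nlinarith [sq_nonneg (A * B - (1 - 2 * p) * B ^ 2), mul_nonneg h6 (sq_nonneg (B ^ 2)),
              sq_nonneg (B ^ 2)]
          nlinarith [mul_nonneg h6 h7]
      _ = Ex p (fun x => a x ^ 4) + 8 * Ex p (fun x => a x ^ 2 * b x ^ 2) +
            R ^ 2 * Ex p (fun x => b x ^ 4) := by rw [Ex_add, Ex_add, Ex_mul, Ex_mul]
      _ ≤ α ^ 2 + 8 * (α * β) + R ^ 2 * β ^ 2 := by gcongr
      _ ≤ _ := by nlinarith [mul_nonneg hα0 hβ0]

end Vale.Agent.P063
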