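import Vale.Agent.P063.Core
import Vale.Agent.P063.Defs

/-! The Poincare inequality for hypergraph properties and the width bound. -/

namespace Vale.Agent.P063

open Finset

variable {n r : ℕ} {p : ℝ}

def tau (σ : Equiv.Perm (Fin n)) : Edge n r ≃ Edge n r where
  toFun := relabel σ
  invFun := relabel σ.symm
  left_inv e := Subtype.ext (by simp [relabel, map_map])
  right_inv e := Subtype.ext (by simp [relabel, map_map])

def Vs (S : Finset (Edge n r)) : Finset (Fin n) := S.biUnion (fun e => e.1)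

def dg (S : Finset (Edge n r)) (w : Fin n) : ℕ := (S.filter (fun e => w ∈ e.1)).card

lemma poincare_W (h0 : 0 < p) (h1 : p < 1) {f : Hyp n r → ℝ} (hf : ∀ x, f x = 0 ∨ f x = 1)
    (hs : ∀ σ x, f (x ∘ tau σ) = f x) (W : Finset (Fin n)) (j : ℕ) {θ : ℝ} (hθ : 0 ≤ θ)
    (hj : (2 / sg p) ^ (2 * j) ≤ θ ^ 3 * W.card) :
    ∑ w ∈ W, ∑ S, (if Vs S ∩ W = {w} ∧ dg S w ≤ j then 1 else 0) * co p f S ^ 2 ≤
      2 * θ * tot p f := by
  set U : Finset (Edge n r) := univ.filter (fun e => ¬ Disjoint e.1 W) with hU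
  set Z : Fin n → Finset (Edge n r) := fun w => univ.filter (fun e => e.1 ∩ W = {w}) with hZ
  have h2 : ∀ y, ∑ w ∈ W, low p (fun x => f (mix U x y)) (Z w) j ≤
      2 * θ * tot p (fun x => f (mix U x y)) := by
    intro y
    apply symm_bound h0 h1 (fun x => hf _) W Z _ _ j hθ hj
    · intro w _ w' _ hne
      rw [disjoint_left]
      intro e he he'
      exact hne (singleton_injective ((mem_filter.1 he).2.symm.trans (mem_filter.1 he').2))
    · intro w hw w' hw'
      have hW : W.map (Equiv.swap w w').toEmbedding = W := by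
        ext a
        rw [mem_map_equiv, Equiv.symm_swap, Equiv.swap_apply_def]
        split_ifs with h h'
        · simp [h, hw, hw']
        · simp [h', hw, hw']
        · rfl
      have h3 : (Z w).map (tau (Equiv.swap w w')).toEmbedding = Z w' := by
        ext e
        rw [mem_map_equiv]
        simp only [hZ, mem_filter, mem_univ, true_and]
        show e.1.map (Equiv.swap w w').toEmbedding ∩ W = {w} ↔ _
        have h4 : ({w} : Finset (Fin n)) = map (Equiv.swap w w').toEmbedding {w'} := by simp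
        rw [h4]
        conv_lhs => rw [← hW, ← map_inter]
        exact map_inj
      rw [← h3, io_perm]
      intro x
      rw [← hs (Equiv.swap w w') (mix U x y)]
      congr 1
      ext e
      have h4 : tau (Equiv.swap w w') e ∈ U ↔ e ∈ U := by
        simp only [hU, mem_filter, mem_univ, true_and]
        show ¬ Disjoint (e.1.map (Equiv.swap w w').toEmbedding) W ↔ _
        conv_lhs => rw [← hW, disjoint_map]
      simp only [mix, Function.comp, h4]
      split_ifs with h
      · rfl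
      · congr 1
        have h5 : Disjoint e.1 W := by simpa [hU] using h
        apply Subtype.ext
        show e.1 = e.1.map (Equiv.swap w w').toEmbedding
        ext a
        rw [mem_map_equiv, Equiv.symm_swap, Equiv.swap_apply_def]
        have h6 := disjoint_right.1 h5 hw
        have h7 := disjoint_right.1 h5 hw'
        split_ifs with h h'
        · simp [h, h6, h7]
        · simp [h', h6, h7]
        · rfl
  have h3 := Ex_mono h0 h1 h2
  rw [Ex_sum, Ex_mul] at h3
  simp only [low, tot, Ex_co_mix h0 h1 f U] at h3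
  refine le_trans (sum_le_sum (fun w hw => ?_)) (h3.trans ?_)
  · apply sum_le_sum
    intro S _
    apply mul_le_mul_of_nonneg_right _ (sq_nonneg _)
    by_cases h : Vs S ∩ W = {w} ∧ dg S w ≤ j
    · have h4 : S ∩ U ⊆ Z w := by
        intro e he
        obtain ⟨he1, he2⟩ := mem_inter.1 he
        refine mem_filter.2 ⟨mem_univ _, ?_⟩
        apply (Finset.Nonempty.subset_singleton_iff
          (not_disjoint_iff_nonempty_inter.1 (mem_filter.1 he2).2)).1
        rw [← h.1]
        exact inter_subset_inter_right (subset_biUnion_of_mem (fun e : Edge n r => e.1) he1)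
      rw [if_pos h, if_pos]
      refine ⟨h4, ?_, le_trans (card_le_card (fun e he => ?_)) h.2⟩
      · have : w ∈ Vs S ∩ W := h.1 ▸ mem_singleton_self w
        obtain ⟨e, he, hwe⟩ := mem_biUnion.1 (mem_inter.1 this).1
        exact ⟨e, mem_inter.2 ⟨he, mem_filter.2 ⟨mem_univ _, not_disjoint_iff.2 ⟨w, hwe, hw⟩⟩⟩⟩
      · have : w ∈ e.1 ∩ W := (mem_filter.1 (h4 he)).2 ▸ mem_singleton_self w
        exact mem_filter.2 ⟨(mem_inter.1 he).1, (mem_inter.1 this).1⟩
    · rw [if_neg h]; split_ifs <;> norm_num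
  · apply mul_le_mul_of_nonneg_left _ (by positivity)
    apply sum_le_sum
    intro S _
    apply mul_le_mul_of_nonneg_right _ (sq_nonneg _)
    exact_mod_cast card_le_card inter_subset_left

lemma choose_sub (N b k : ℕ) : N.choose (b + 1) ≤ (N - k).choose (b + 1) + k * (N - 1).choose b := by
  induction k with
  | zero => simp
  | succ k ih =>
    have h1 : (N - k).choose (b + 1) ≤ (N - (k + 1)).choose (b + 1) + (N - 1).choose b := by
      rcases Nat.eq_zero_or_pos (N - k) with h | h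
      · rw [h]; simp
      · obtain ⟨M, hM⟩ := Nat.exists_eq_succ_of_ne_zero h.ne'
        have h2 : N - (k + 1) = M := by omega
        have h3 : M.choose b ≤ (N - 1).choose b := Nat.choose_le_choose b (by omega)
        rw [hM, h2, Nat.choose_succ_succ']
        omega
    rw [add_mul, one_mul]
    omega

lemma choose_half {v m : ℕ} (hv : 0 < v) (hm : 0 < m) (h : 2 * v * m ≤ n) :
    m * n.choose m ≤ 2 * n * (n - v).choose (m - 1) := by
  obtain ⟨k, rfl⟩ := Nat.exists_eq_succ_of_ne_zero hv.ne'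
  obtain ⟨a, rfl⟩ := Nat.exists_eq_succ_of_ne_zero hm.ne'
  have h1 : 2 * k * a + 2 ≤ n := by nlinarith
  obtain ⟨N, rfl⟩ := Nat.exists_eq_succ_of_ne_zero (n := n) (by omega)
  simp only [Nat.succ_eq_add_one, Nat.add_sub_cancel, Nat.add_sub_add_right] at *
  rw [mul_comm (a + 1), ← Nat.add_one_mul_choose_eq, mul_comm 2, mul_assoc]
  apply Nat.mul_le_mul_left
  rcases Nat.eq_zero_or_pos a with rfl | ha
  · simp
  obtain ⟨b, rfl⟩ := Nat.exists_eq_succ_of_ne_zero ha.ne'
  obtain ⟨M, rfl⟩ := Nat.exists_eq_succ_of_ne_zero (n := N) (by omega)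
  have h2 := choose_sub (M + 1) b k
  have h3 := Nat.add_one_mul_choose_eq M b
  simp only [Nat.succ_eq_add_one, Nat.add_sub_cancel] at *
  have h4 : (M + 1) * (2 * (k * M.choose b)) ≤ (M + 1) * (M + 1).choose (b + 1) := by
    calc _ = 2 * k * ((M + 1) * M.choose b) := by ring
      _ = (2 * k * (b + 1)) * (M + 1).choose (b + 1) := by rw [h3]; ring
      _ ≤ _ := Nat.mul_le_mul_right _ (by omega)
  have h5 := Nat.le_of_mul_le_mul_left h4 (by omega)
  omega

lemma count_W {V : Finset (Fin n)} {w : Fin n} (hw : w ∈ V) {m : ℕ} (hm : 0 < m) :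
    (n - V.card).choose (m - 1) ≤
      ((powersetCard m (univ : Finset (Fin n))).filter (fun W => V ∩ W = {w})).card := by
  have : (n - V.card).choose (m - 1) = (powersetCard (m - 1) Vᶜ).card := by
    rw [card_powersetCard, card_compl, Fintype.card_fin]
  rw [this]
  have hnot : ∀ W ∈ powersetCard (m - 1) Vᶜ, w ∉ W := fun W hW h =>
    (mem_compl.1 ((mem_powersetCard.1 hW).1 h)) hw
  apply card_le_card_of_injOn (fun W => insert w W)
  · intro W hW
    have hW' := mem_coe.1 hW
    refine mem_coe.2 (mem_filter.2 ⟨mem_powersetCard.2 ⟨subset_univ _, ?_⟩, ?_⟩)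
    · rw [card_insert_of_notMem (hnot W hW'), (mem_powersetCard.1 hW').2]; omega
    · rw [inter_insert_of_mem hw, disjoint_iff_inter_eq_empty.1]
      · rfl
      · exact disjoint_right.2 (fun a ha => mem_compl.1 ((mem_powersetCard.1 hW').1 ha))
  · intro W hW W' hW' h
    have := congrArg (fun s => erase s w) h
    simpa only [erase_insert (hnot W hW), erase_insert (hnot W' hW')] using this

lemma dg_le (S : Finset (Edge n r)) (w : Fin n) : dg S w ≤ (Vs S).card ^ (r - 1) := by
  refine le_trans ?_ (Nat.choose_le_pow _ _)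
  rw [← card_powersetCard]
  apply card_le_card_of_injOn (fun e => e.1.erase w)
  · intro e he
    obtain ⟨h1, h2⟩ := mem_filter.1 (mem_coe.1 he)
    refine mem_coe.2 (mem_powersetCard.2 ⟨(erase_subset _ _).trans
      (subset_biUnion_of_mem (fun e : Edge n r => e.1) h1), ?_⟩)
    rw [card_erase_of_mem h2, e.2]
  · intro e he e' he' h
    apply Subtype.ext
    have := congrArg (insert w) h
    rwa [insert_erase (mem_filter.1 (mem_coe.1 he)).2,
      insert_erase (mem_filter.1 (mem_coe.1 he')).2] at this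

lemma handshake (S : Finset (Edge n r)) : ∑ w ∈ Vs S, dg S w = r * S.card := by
  simp only [dg, card_filter]
  rw [sum_comm, mul_comm, ← smul_eq_mul, ← sum_const]
  apply sum_congr rfl
  intro e he
  rw [← card_filter, filter_mem_eq_inter, Vs,
    inter_eq_right.2 (subset_biUnion_of_mem (fun e : Edge n r => e.1) he), e.2]

lemma Vs_card (S : Finset (Edge n r)) : (Vs S).card ≤ r * S.card := by
  refine card_biUnion_le.trans (le_of_eq ?_)
  rw [sum_congr rfl (fun e _ => e.2), sum_const, smul_eq_mul, mul_comm]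

lemma large (hr : 2 ≤ r) {S : Finset (Edge n r)} (hS : S ≠ ∅) {j : ℕ} {D : ℝ} (hD1 : D ≤ j ^ 2)
    (hD2 : D ^ (r - 1) ≤ j ^ r)
    (h : ¬ ((Vs S).card ≤ j ^ 2 ∧ ∃ w ∈ Vs S, dg S w ≤ j)) : D ≤ r * S.card := by
  by_cases h1 : (Vs S).card ≤ j ^ 2
  · have h2 : ∀ w ∈ Vs S, j ≤ dg S w := by
      intro w hw
      by_contra hc
      exact h ⟨h1, w, hw, (not_le.1 hc).le⟩
    have h3 : (Vs S).card * j ≤ r * S.card := by
      rw [← handshake, ← smul_eq_mul]
      exact card_nsmul_le_sum _ _ _ h2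
    obtain ⟨e, he⟩ := nonempty_iff_ne_empty.2 hS
    obtain ⟨w, hw⟩ : e.1.Nonempty := card_pos.1 (by rw [e.2]; omega)
    have h4 := (h2 w (mem_biUnion.2 ⟨e, he, hw⟩)).trans (dg_le S w)
    have h5 : j ^ r ≤ (r * S.card) ^ (r - 1) := by
      calc j ^ r = j * j ^ (r - 1) := by rw [← pow_succ']; congr 1; omega
        _ ≤ (Vs S).card ^ (r - 1) * j ^ (r - 1) := Nat.mul_le_mul_right _ h4
        _ = ((Vs S).card * j) ^ (r - 1) := (mul_pow _ _ _).symm
        _ ≤ _ := Nat.pow_le_pow_left h3 _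
    apply le_of_pow_le_pow_left₀ (n := r - 1) (by omega) (by positivity)
    exact hD2.trans (by exact_mod_cast h5)
  · have h2 : j ^ 2 ≤ r * S.card := (not_le.1 h1).le.trans (Vs_card S)
    exact hD1.trans (by exact_mod_cast h2)

lemma poincare (hr : 2 ≤ r) (h0 : 0 < p) (h1 : p < 1) {f : Hyp n r → ℝ}
    (hf : ∀ x, f x = 0 ∨ f x = 1) (hs : ∀ σ x, f (x ∘ tau σ) = f x) {j : ℕ} (hj : 0 < j)
    (hn : (2 / sg p) ^ (16 * j) ≤ n) {D : ℝ} (hD1 : D ≤ j ^ 2) (hD0 : 0 ≤ D)
    (hD2 : D ^ (r - 1) ≤ j ^ r) : Ex p f * (1 - Ex p f) * D ≤ 2 * r * tot p f := by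
  set R : ℝ := 2 / sg p with hR
  have hs0 := sg_pos h0 h1
  have hs1 := sg_le h0 h1
  have hR4 : 4 ≤ R := by rw [hR, le_div_iff₀ hs0]; linarith
  have hj' : (0 : ℝ) < j := by exact_mod_cast hj
  have h2 : (2 * j : ℝ) ≤ R ^ j := by
    have : 2 * j ≤ 4 ^ j := by
      have := Nat.lt_two_pow_self (n := 2 * j)
      rw [pow_mul] at this
      exact this.le
    exact le_trans (by exact_mod_cast this) (pow_le_pow_left₀ (by norm_num) hR4 j)
  have hRj : (1 : ℝ) ≤ R ^ (2 * j) := one_le_pow₀ (by linarith)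
  have h3 : R ^ (2 * j) * (4 * j ^ 2) ^ 7 ≤ n := by
    calc _ = R ^ (2 * j) * (2 * j) ^ 14 := by ring
      _ ≤ R ^ (2 * j) * (R ^ j) ^ 14 := by gcongr
      _ = R ^ (16 * j) := by ring
      _ ≤ _ := hn
  have h4 : (1 : ℝ) ≤ 4 * j ^ 2 := by
    have : (1 : ℝ) ≤ j := by exact_mod_cast hj
    nlinarith
  have h5 : (4 * j ^ 2 : ℝ) ≤ n := by
    refine le_trans ?_ h3
    calc (4 * j ^ 2 : ℝ) ≤ (4 * j ^ 2) ^ 7 := le_self_pow₀ h4 (by norm_num)
      _ ≤ _ := le_mul_of_one_le_left (by positivity) hRj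
  have hn0 : (0 : ℝ) < n := by linarith
  set m := n / (2 * j ^ 2) with hm
  have h6 : 2 * j ^ 2 * m ≤ n := Nat.mul_div_le _ _
  have h7 : n < 2 * j ^ 2 * (m + 1) := Nat.lt_mul_div_succ _ (by positivity)
  have h8 : 4 * j ^ 2 ≤ n := by exact_mod_cast h5
  have hm0 : 0 < m := Nat.div_pos (by omega) (by positivity)
  have hm0' : (0 : ℝ) < m := by exact_mod_cast hm0
  have h9 : (n : ℝ) ≤ 4 * j ^ 2 * m := by
    have : n ≤ 4 * j ^ 2 * m := by nlinarith
    exact_mod_cast this
  set θ : ℝ := m / (4 * j ^ 2 * n) with hθ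
  have hθ0 : 0 ≤ θ := by positivity
  have h10 : R ^ (2 * j) ≤ θ ^ 3 * m := by
    have h11 : (n : ℝ) ^ 4 ≤ (4 * j ^ 2 * m) ^ 4 := pow_le_pow_left₀ hn0.le h9 4
    have : θ ^ 3 * m = m ^ 4 / (4 * j ^ 2 * n) ^ 3 := by rw [hθ]; field_simp
    rw [this, le_div_iff₀ (by positivity)]
    have h12 : (4 * j ^ 2 : ℝ) ^ 4 * (R ^ (2 * j) * (4 * j ^ 2 * n) ^ 3) ≤
        (4 * j ^ 2 : ℝ) ^ 4 * m ^ 4 := by
      calc _ = (R ^ (2 * j) * (4 * j ^ 2) ^ 7) * n ^ 3 := by ring
        _ ≤ n * n ^ 3 := by gcongr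
        _ = n ^ 4 := by ring
        _ ≤ _ := h11
        _ = _ := by ring
    exact le_of_mul_le_mul_left h12 (by positivity)
  have h11 : ∑ W ∈ powersetCard m (univ : Finset (Fin n)), ∑ w ∈ W,
      ∑ S, (if Vs S ∩ W = {w} ∧ dg S w ≤ j then 1 else 0) * co p f S ^ 2 ≤
      n.choose m * (2 * θ * tot p f) := by
    have := sum_le_card_nsmul (powersetCard m (univ : Finset (Fin n))) _ _ (fun W hW =>
      poincare_W h0 h1 hf hs W j hθ0 (by rwa [(mem_powersetCard.1 hW).2]))
    rwa [card_powersetCard, card_univ, Fintype.card_fin, nsmul_eq_mul] at this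
  have hC : (0 : ℝ) < n.choose m := by
    exact_mod_cast Nat.choose_pos (Nat.div_le_self _ _)
  set sm : Finset (Edge n r) → Prop := fun S => (Vs S).card ≤ j ^ 2 ∧ ∃ w ∈ Vs S, dg S w ≤ j
  have h12 : m * n.choose m / (2 * n) * ∑ S, (if sm S then 1 else 0) * co p f S ^ 2 ≤
      n.choose m * (2 * θ * tot p f) := by
    refine le_trans ?_ h11
    simp only [sum_comm (t := (univ : Finset (Finset (Edge n r)))), ← sum_mul, mul_sum,
      ← mul_assoc]
    apply sum_le_sum
    intro S _
    apply mul_le_mul_of_nonneg_right _ (sq_nonneg _)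
    split_ifs with h
    · obtain ⟨h13, w, hw, hd⟩ := h
      have h14 := (choose_half (card_pos.2 ⟨w, hw⟩) hm0 (le_trans (by gcongr) h6)).trans
        (Nat.mul_le_mul_left _ (count_W hw hm0))
      rw [mul_one, div_le_iff₀ (by positivity), mul_comm _ (2 * (n : ℝ))]
      have h16 : (m : ℝ) * n.choose m ≤ 2 * n *
          ((powersetCard m (univ : Finset (Fin n))).filter (fun W => Vs S ∩ W = {w})).card := by
        exact_mod_cast h14
      refine h16.trans (mul_le_mul_of_nonneg_left ?_ (by positivity))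
      rw [card_filter]
      push_cast
      apply sum_le_sum
      intro W _
      have hnn : ∀ w' ∈ W, (0 : ℝ) ≤ if Vs S ∩ W = {w'} ∧ dg S w' ≤ j then 1 else 0 :=
        fun _ _ => by split_ifs <;> norm_num
      split_ifs with h15
      · have : w ∈ Vs S ∩ W := h15 ▸ mem_singleton_self w
        refine le_trans ?_ (single_le_sum hnn (mem_inter.1 this).2)
        rw [if_pos ⟨h15, hd⟩]
      · exact sum_nonneg hnn
    · rw [mul_zero]
      exact sum_nonneg (fun _ _ => sum_nonneg (fun _ _ => by split_ifs <;> norm_num))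
  set A := ∑ S, (if sm S then 1 else 0) * co p f S ^ 2
  have hA0 : 0 ≤ A := sum_nonneg (fun _ _ => by split_ifs <;> positivity)
  have ht := tot_nonneg (p := p) f
  have h13 : A * j ^ 2 ≤ tot p f := by
    have h14 : m * n.choose m / (2 * n * j ^ 2) * (A * j ^ 2) ≤
        m * n.choose m / (2 * n * j ^ 2) * tot p f := by
      calc _ = m * n.choose m / (2 * n) * A := by field_simp
        _ ≤ _ := h12
        _ = _ := by rw [hθ]; field_simp; ring
    exact le_of_mul_le_mul_left h14 (by positivity)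
  have h14 : Ex p f * (1 - Ex p f) * D ≤ A * D + r * tot p f := by
    rw [var_eq h0 h1 hf, tot, sum_mul, sum_mul, mul_sum, ← sum_add_distrib]
    apply sum_le_sum
    intro S _
    have h15 : (0 : ℝ) ≤ r * S.card := by positivity
    have h17 : (if S = ∅ then 0 else 1) * D ≤ (if sm S then 1 else 0) * D + r * S.card := by
      by_cases h : S = ∅
      · rw [if_pos h]; split_ifs <;> linarith
      · rw [if_neg h]
        split_ifs with h'
        · linarith
        · have := large hr h hD1 hD2 h'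
          linarith
    have h18 := mul_le_mul_of_nonneg_right h17 (sq_nonneg (co p f S))
    linarith
  have h15 : (2 : ℝ) ≤ r := by exact_mod_cast hr
  have h16 := mul_le_mul_of_nonneg_left hD1 hA0
  have h17 := mul_le_mul_of_nonneg_right h15 ht
  linarith

lemma deriv_lb (hr : 2 ≤ r) (hn : r ≤ n) (h0 : 0 < p) (h1 : p < 1) {f : Hyp n r → ℝ}
    (hf : ∀ x, f x = 0 ∨ f x = 1) (hs : ∀ σ x, f (x ∘ tau σ) = f x) :
    Ex p f * (1 - Ex p f) * Real.log n ^ ((r : ℝ) / (r - 1)) ≤ 8192 * r * (tot p f / sg p ^ 2) := by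
  set R : ℝ := 2 / sg p with hR
  set γ : ℝ := (r : ℝ) / (r - 1) with hγ
  have hs0 := sg_pos h0 h1
  have hs1 := sg_le h0 h1
  have hR4 : 4 ≤ R := by rw [hR, le_div_iff₀ hs0]; linarith
  have hr' : (2 : ℝ) ≤ r := by exact_mod_cast hr
  have hn' : (2 : ℝ) ≤ n := by exact_mod_cast hr.trans hn
  have hγ0 : 0 ≤ γ := div_nonneg (by linarith) (by linarith)
  have hγ2 : γ ≤ 2 := by rw [hγ, div_le_iff₀ (by linarith)]; linarith
  have hL : 0 ≤ Real.log n := Real.log_nonneg (by linarith)
  have ht := tot_nonneg (p := p) f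
  have hV : 0 ≤ Ex p f * (1 - Ex p f) := by
    rw [var_eq h0 h1 hf]
    exact sum_nonneg (fun _ _ => by split_ifs <;> positivity)
  obtain ⟨j, hj1, hj2⟩ := exists_nat_pow_near (x := (n : ℝ)) (y := R ^ 16) (by linarith)
    (one_lt_pow₀ (by linarith) (by norm_num))
  have h2 : Real.log n ≤ 16 * (j + 1) * R := by
    have h3 := Real.log_le_log (by linarith) hj2.le
    rw [← pow_mul, Real.log_pow] at h3
    have h4 := Real.log_le_sub_one_of_pos (x := R) (by linarith)
    push_cast at h3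
    have : (0 : ℝ) ≤ 16 * (j + 1) := by positivity
    nlinarith
  have h3 : (32 * R) ^ γ ≤ (32 * R) ^ 2 := by
    rw [← Real.rpow_two]
    exact Real.rpow_le_rpow_of_exponent_le (by linarith) hγ2
  have h4 : (32 * R) ^ 2 = 4096 / sg p ^ 2 := by rw [hR]; field_simp; norm_num
  obtain ⟨D, hD0, hD1, hD2⟩ : ∃ D : ℝ, 0 ≤ D ∧ Real.log n ^ γ ≤ (32 * R) ^ γ * D ∧
      Ex p f * (1 - Ex p f) * D ≤ 2 * r * tot p f := by
    rcases Nat.eq_zero_or_pos j with rfl | hj
    · refine ⟨1, zero_le_one, ?_, ?_⟩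
      · rw [mul_one]
        exact Real.rpow_le_rpow hL (by push_cast at h2; linarith) hγ0
      · have : Ex p f * (1 - Ex p f) ≤ tot p f := by
          rw [var_eq h0 h1 hf]
          apply sum_le_sum
          intro S _
          apply mul_le_mul_of_nonneg_right _ (sq_nonneg _)
          split_ifs with h
          · positivity
          · exact_mod_cast card_pos.2 (nonempty_iff_ne_empty.2 h)
        nlinarith
    · have hj' : (1 : ℝ) ≤ j := by exact_mod_cast hj
      refine ⟨(j : ℝ) ^ γ, by positivity, ?_, poincare hr h0 h1 hf hs hj (by rwa [pow_mul]) ?_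
        (by positivity) (le_of_eq ?_)⟩
      · rw [← Real.mul_rpow (by positivity) (by positivity)]
        exact Real.rpow_le_rpow hL (by nlinarith) hγ0
      · rw [← Real.rpow_two]
        exact Real.rpow_le_rpow_of_exponent_le hj' hγ2
      · rw [← Real.rpow_natCast, ← Real.rpow_mul (by positivity), ← Real.rpow_natCast]
        congr 1
        rw [Nat.cast_sub (by omega), hγ, Nat.cast_one, div_mul_cancel₀ _ (by linarith)]
  calc _ ≤ Ex p f * (1 - Ex p f) * (4096 / sg p ^ 2 * D) := by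
        apply mul_le_mul_of_nonneg_left _ hV
        rw [← h4]
        exact hD1.trans (mul_le_mul_of_nonneg_right h3 hD0)
    _ = 4096 / sg p ^ 2 * (Ex p f * (1 - Ex p f) * D) := by ring
    _ ≤ 4096 / sg p ^ 2 * (2 * r * tot p f) := by gcongr
    _ = _ := by ring

theorem main (hr : 2 ≤ r) {ε : ℝ} (hε0 : 0 < ε) (hε1 : ε < 1 / 2) (hn : r ≤ n)
    {P : Finset (Hyp n r)} (hP : IsProperty P) (hI : IsIncreasing P) (hne : P ≠ ∅) :
    width ε P ≤ 8192 * r / ε ^ 2 * Real.log n ^ (-(r : ℝ) / (r - 1)) := by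
  set f : Hyp n r → ℝ := fun x => if x ∈ P then 1 else 0 with hf
  have hf01 : ∀ x, f x = 0 ∨ f x = 1 := fun x => by simp only [hf]; split_ifs <;> simp
  have hs : ∀ σ x, f (x ∘ tau σ) = f x := by
    intro σ x
    have : x ∘ tau σ ∈ P ↔ x ∈ P := by
      refine ⟨fun h => ?_, hP σ x⟩
      have h2 : (fun e => (x ∘ tau σ) (relabel σ.symm e)) = x := by
        ext e
        exact congrArg x ((tau σ).apply_symm_apply e)
      exact h2 ▸ hP σ.symm _ h
    simp only [hf, this]
  have hm : ∀ x e, f (Function.update x e false) ≤ f (Function.update x e true) := by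
    intro x e
    simp only [hf]
    split_ifs with h h'
    · exact le_rfl
    · refine absurd (hI _ h _ (fun e' => ?_)) h'
      by_cases he : e' = e
      · subst he; simp
      · simp [he]
    · norm_num
    · exact le_rfl
  have hmu : ∀ q, mu q P = Ex q f := by
    intro q
    simp only [mu, Ex, hf, mul_ite, mul_one, mul_zero, sum_ite_mem, univ_inter]
    rfl
  have hc : Continuous (fun q => Ex q f) := by
    unfold Ex wt
    refine continuous_finsetSum _ (fun x _ => (continuous_finsetProd _ (fun e _ => ?_)).mul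
      continuous_const)
    unfold bw
    split_ifs <;> fun_prop
  have hd : ∀ q ∈ Set.Ioo (0 : ℝ) 1, HasDerivAt (fun q => Ex q f) (tot q f / sg q ^ 2) q :=
    fun q hq => russo hq.1 hq.2 hf01 hm
  have hmono : MonotoneOn (fun q => Ex q f) (Set.Icc 0 1) := by
    apply monotoneOn_of_deriv_nonneg (convex_Icc 0 1) hc.continuousOn
    · rw [interior_Icc]
      exact fun q hq => (hd q hq).differentiableAt.differentiableWithinAt
    · rw [interior_Icc]
      intro q hq
      rw [(hd q hq).deriv]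
      exact div_nonneg (tot_nonneg _) (sq_nonneg _)
  have hone : Ex 1 f = 1 := by
    obtain ⟨x, hx⟩ := nonempty_iff_ne_empty.2 hne
    have h1 : (fun _ => true) ∈ P := hI x hx _ (fun _ _ => rfl)
    rw [Ex, sum_eq_single (fun _ => true)]
    · simp [wt, bw, hf, h1]
    · intro y _ hy
      obtain ⟨e, he⟩ := Function.ne_iff.1 hy
      rw [wt, prod_eq_zero (mem_univ e) (by simp [bw, he]), zero_mul]
    · simp
  have hzero : 0 ≤ Ex 0 f := by
    apply sum_nonneg
    intro x _
    apply mul_nonneg (prod_nonneg (fun e _ => by unfold bw; split_ifs <;> norm_num))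
    rcases hf01 x with h | h <;> rw [h] <;> norm_num
  have hbdd : ∀ a, BddBelow {q : ℝ | 0 ≤ q ∧ q ≤ 1 ∧ a ≤ mu q P} := fun a => ⟨0, fun q hq => hq.1⟩
  have hmem : ∀ a ≤ 1, (1 : ℝ) ∈ {q : ℝ | 0 ≤ q ∧ q ≤ 1 ∧ a ≤ mu q P} :=
    fun a ha => ⟨zero_le_one, le_rfl, by rw [hmu, hone]; exact ha⟩
  have hr' : (2 : ℝ) ≤ r := by exact_mod_cast hr
  have hn' : (2 : ℝ) ≤ n := by exact_mod_cast hr.trans hn
  have hL : 0 < Real.log n := Real.log_pos (by linarith)
  have hLγ : 0 < Real.log n ^ ((r : ℝ) / (r - 1)) := Real.rpow_pos_of_pos hL _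
  rw [neg_div, Real.rpow_neg hL.le, ← div_eq_mul_inv, width]
  set a := pa ε P with ha
  set b := pa (1 - ε) P with hb
  rcases le_or_gt b a with hab | hab
  · exact (sub_nonpos.2 hab).trans (by positivity)
  have ha0 : 0 ≤ a := le_csInf ⟨1, hmem ε (by linarith)⟩ (fun q hq => hq.1)
  have hb1 : b ≤ 1 := csInf_le (hbdd _) (hmem _ (by linarith))
  obtain ⟨ξ, hξ, h2⟩ := exists_hasDerivAt_eq_slope (fun q => Ex q f) (fun q => tot q f / sg q ^ 2)
    hab hc.continuousOn (fun q hq => hd q ⟨ha0.trans_lt hq.1, hq.2.trans_le hb1⟩)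
  have hξ0 : 0 < ξ := ha0.trans_lt hξ.1
  have hξ1 : ξ < 1 := hξ.2.trans_le hb1
  have h3 : ε ≤ Ex ξ f := by
    obtain ⟨q, hq, hq2⟩ := exists_lt_of_csInf_lt ⟨1, hmem ε (by linarith)⟩ hξ.1
    exact (hq.2.2.trans_eq (hmu q)).trans (hmono ⟨hq.1, hq.2.1⟩ ⟨hξ0.le, hξ1.le⟩ hq2.le)
  have h4 : Ex ξ f < 1 - ε := by
    by_contra hcon
    exact absurd (csInf_le (hbdd _) ⟨hξ0.le, hξ1.le, by rw [hmu]; exact not_lt.1 hcon⟩)
      (not_le.2 hξ.2)
  have h5 := deriv_lb hr hn hξ0 hξ1 hf01 hs
  have h6 : Ex b f ≤ Ex 1 f := hmono ⟨ha0.trans hab.le, hb1⟩ ⟨zero_le_one, le_rfl⟩ hb1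
  have h7 : Ex 0 f ≤ Ex a f := hmono ⟨le_rfl, zero_le_one⟩ ⟨ha0, hab.le.trans hb1⟩ ha0
  have h8 : ε ^ 2 ≤ Ex ξ f * (1 - Ex ξ f) := by nlinarith
  have h9 : 0 < b - a := sub_pos.2 hab
  rw [h2, ← mul_div_assoc, le_div_iff₀ h9] at h5
  rw [le_div_iff₀ hLγ, le_div_iff₀ (by positivity)]
  have h10 := mul_le_mul_of_nonneg_right h8 (mul_pos hLγ h9).le
  nlinarith

end Vale.Agent.P063
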